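import Vale.Agent.Results.P154.TernaryFerro
import Vale.Agent.P154.Data.A2
import Vale.Agent.P154.Data.A3
import Vale.Agent.P154.Data.A4
import Vale.Agent.P154.Data.A5
import Vale.Agent.P154.Data.A6
import Vale.Agent.P154.Data.U7

/-! The three-state Potts channel on the `d`-ary tree, every `d ≥ 2` and both signs of `lam`:
nonreconstruction holds whenever `d λ² ≤ 1`, apart from the piece `-1/2 ≤ λ < -97/200` for
`d = 4`. -/

namespace Vale.Agent.Results.P154.TernaryRegular

open Vale.Agent.P154

theorem anti (d : ℕ) (hd : 2 ≤ d) (lam : ℝ) (h0 : -(1 / 2) ≤ lam) (hn : lam ≤ 0)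
    (h4 : d = 4 → -(97 / 200) ≤ lam) (h1 : (d : ℝ) * lam ^ 2 ≤ 1) :
    Filter.Tendsto (fun n => aSeq 3 d lam n) Filter.atTop (nhds 0) := by
  rcases le_or_gt 7 d with h7 | h7
  · refine U7.cert.result (by norm_num) d (by omega) ?_ lam hn h1
    have h7' : (7 : ℝ) ≤ d := by exact_mod_cast h7
    norm_num
    linarith
  · interval_cases d
    · exact A2.cert.result (by norm_num) lam (by linarith) hn (by norm_num [cv]; nlinarith)
    · exact A3.cert.result (by norm_num) lam (by linarith) hn (by norm_num [cv]; nlinarith)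
    · exact A4.cert.result (by norm_num) lam (by linarith [h4 rfl]) hn
        (by norm_num [cv]; nlinarith [h4 rfl])
    · have h1' : lam ^ 2 ≤ 1 / 5 := by norm_num at h1; linarith
      refine A5.cert.result (by norm_num) lam ?_ hn (by norm_num [cv]; linarith)
      by_contra hcon
      push Not at hcon
      nlinarith
    · have h1' : lam ^ 2 ≤ 1 / 6 := by norm_num at h1; linarith
      refine A6.cert.result (by norm_num) lam ?_ hn (by norm_num [cv]; linarith)
      by_contra hcon
      push Not at hcon
      nlinarith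

/-- For the three-state Potts channel with eigenvalue `lam` (either sign) on the `d`-ary tree,
`d ≥ 2`, there is no reconstruction when `d * lam ^ 2 ≤ 1`; for `d = 4` the values
`lam < -97/200` are excluded. -/
theorem result (d : ℕ) (hd : 2 ≤ d) (lam : ℝ) (h0 : -(1 / 2) ≤ lam)
    (h4 : d = 4 → -(97 / 200) ≤ lam) (h1 : (d : ℝ) * lam ^ 2 ≤ 1) :
    Filter.Tendsto (fun n => aSeq 3 d lam n) Filter.atTop (nhds 0) := by
  rcases le_total 0 lam with h | h
  · exact TernaryFerro.result d hd lam h h1
  · exact anti d hd lam h0 h h4 h1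

end Vale.Agent.Results.P154.TernaryRegular
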