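import Vale.Agent.P154.PoisAll
import Vale.Agent.P154.RegAll
import Vale.Agent.Results.P154.TernaryRegular

/-! The three-state Potts channel, both tree models, all admissible parameters. On the `d`-ary
tree, for every integer `d ≥ 2`, and on the Galton-Watson tree with Poisson offspring of any real
mean `d > 0`, nonreconstruction holds whenever `d λ² ≤ 1`, for every admissible eigenvalue
`-1/2 ≤ λ ≤ 1`. -/

namespace Vale.Agent.Results.P154.TernaryComplete

open Vale.Agent.P154

/-- For the three-state Potts channel with eigenvalue `lam`, `-1/2 ≤ lam ≤ 1`: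
(1) on the `d`-ary tree, `d ≥ 2`, there is no reconstruction when `d * lam ^ 2 ≤ 1`;
(2) on the Galton-Watson tree with Poisson offspring of mean `d > 0` there is no reconstruction
when `d * lam ^ 2 ≤ 1`. -/
theorem result :
    (∀ (d : ℕ) (lam : ℝ), 2 ≤ d → -(1 / 2) ≤ lam → lam ≤ 1 → (d : ℝ) * lam ^ 2 ≤ 1 →
      Filter.Tendsto (fun n => aSeq 3 d lam n) Filter.atTop (nhds 0)) ∧
    (∀ d lam : ℝ, 0 < d → -(1 / 2) ≤ lam → lam ≤ 1 → d * lam ^ 2 ≤ 1 →
      Filter.Tendsto (fun n => aSeqG 3 d lam n) Filter.atTop (nhds 0)) := by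
  refine ⟨fun d lam hd h0 _ hdl => ?_, fun d lam hd h0 hl h1 => pois_all d hd lam h0 hl h1⟩
  by_cases h : d = 4 ∧ lam < -(97 / 200)
  · obtain ⟨h4, hlam⟩ := h
    subst h4
    exact quaternary lam h0 (by linarith)
  · refine TernaryRegular.result d hd lam h0 (fun h4 => ?_) hdl
    by_contra hcon
    exact h ⟨h4, not_le.1 hcon⟩

end Vale.Agent.Results.P154.TernaryComplete
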