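import Vale.Agent.P154.Data.D2
import Vale.Agent.P154.Data.C3
import Vale.Agent.P154.Data.C4
import Vale.Agent.P154.Data.C5
import Vale.Agent.P154.Data.C6
import Vale.Agent.P154.Data.C7
import Vale.Agent.P154.Data.C8
import Vale.Agent.P154.Data.Q3M

/-! The ferromagnetic three-state Potts channel on the `d`-ary tree, every `d ≥ 2`:
nonreconstruction holds whenever `d λ² ≤ 1`. -/

namespace Vale.Agent.Results.P154.TernaryFerro

open Vale.Agent.P154

theorem method2 (θ : ℝ) (t0 : 0 < θ) (t1 : θ ≤ 1) :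
    ∃ (wd cm B : ℝ) (Ψ : ℕ → ℝ → ℝ → ℝ → ℝ), Method (1 + 1) (lamd (1 + 1) * θ) wd cm B Ψ := by
  refine ⟨_, _, _, _, method_of 1 le_rfl (fun _ => D2.f) (1, 99) (by norm_num [cv])
    (mono_of_box _ (box_zero _ _ D2.h4))
    (base_cert 1 10000 14142 14143 le_rfl D2.f D2.f D2.e2 D2.e3 (1, 99) D2.t1 D2.t2 D2.t3
      (by norm_num) (by norm_num) (by decide) (by decide) (by decide) D2.h1 D2.h2 D2.h3)
    (fun k hk hk' => by omega) θ t0 t1⟩

/-- For the three-state Potts channel with eigenvalue `lam ≥ 0` on the `d`-ary tree, `d ≥ 2`,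
there is no reconstruction when `d * lam ^ 2 ≤ 1`. -/
theorem result (d : ℕ) (hd : 2 ≤ d) (lam : ℝ) (h0 : 0 ≤ lam) (h1 : (d : ℝ) * lam ^ 2 ≤ 1) :
    Filter.Tendsto (fun n => aSeq 3 d lam n) Filter.atTop (nhds 0) := by
  rcases h0.eq_or_lt with hz | hpos
  · rw [← hz]; exact zero_tendsto d
  rcases le_or_gt 9 d with h9 | h9
  · have h9' : (9 : ℝ) ≤ d := by exact_mod_cast h9
    have : lam ≤ 1 / 3 := by
      by_contra hcon
      push Not at hcon
      have : (1 / 3 : ℝ) ^ 2 < lam ^ 2 := by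
        apply pow_lt_pow_left₀ hcon (by norm_num) (by norm_num)
      nlinarith
    exact Q3.no_rec d hd lam hpos this h1
  · interval_cases d
    · exact nonrec_of 1 method2 lam h0 h1
    · exact nonrec_of 2 C3.method lam h0 h1
    · exact nonrec_of 3 C4.method lam h0 h1
    · exact nonrec_of 4 C5.method lam h0 h1
    · exact nonrec_of 5 C6.method lam h0 h1
    · exact nonrec_of 6 C7.method lam h0 h1
    · exact nonrec_of 7 C8.method lam h0 h1

end Vale.Agent.Results.P154.TernaryFerro
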