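import Vale.Agent.P154.PoisAll
import Vale.Agent.P154.RegAll
import Vale.Agent.P154.TvMono
import Vale.Agent.P154.KSReg
import Vale.Agent.P154.KSPois
import Vale.Agent.Results.P154.TernaryRegular

/-! The reconstruction threshold of the three-state Potts channel in both tree models, for all
admissible parameters: reconstruction holds if and only if `d λ² > 1`. -/

namespace Vale.Agent.Results.P154.TernaryIff

open Vale.Agent.P154

theorem reg_zero (d : ℕ) (lam : ℝ) (hd : 2 ≤ d) (h0 : -(1 / 2) ≤ lam)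
    (hdl : (d : ℝ) * lam ^ 2 ≤ 1) :
    Filter.Tendsto (fun n => aSeq 3 d lam n) Filter.atTop (nhds 0) := by
  by_cases h : d = 4 ∧ lam < -(97 / 200)
  · obtain ⟨h4, hlam⟩ := h
    subst h4
    exact quaternary lam h0 (by linarith)
  · refine TernaryRegular.result d hd lam h0 (fun h4 => ?_) hdl
    by_contra hcon
    exact h ⟨h4, not_le.1 hcon⟩

theorem dichotomy (a : ℕ → ℝ) (x : ℝ)
    (hz : x ≤ 1 → Filter.Tendsto a Filter.atTop (nhds 0))
    (hp : 1 < x → ∃ L, 0 < L ∧ Filter.Tendsto a Filter.atTop (nhds L)) :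
    ((∃ L, 0 < L ∧ Filter.Tendsto a Filter.atTop (nhds L)) ↔ 1 < x) ∧
      (Filter.Tendsto a Filter.atTop (nhds 0) ↔ x ≤ 1) := by
  refine ⟨⟨fun ⟨L, hL, hL'⟩ => ?_, hp⟩, ⟨fun h => ?_, hz⟩⟩
  · by_contra hx
    exact hL.ne' (tendsto_nhds_unique hL' (hz (not_lt.1 hx)))
  · by_contra hx
    obtain ⟨L, hL, hL'⟩ := hp (not_le.1 hx)
    exact hL.ne' (tendsto_nhds_unique hL' h)

/-- The three-state Potts channel with eigenvalue `lam`, `-1/2 ≤ lam ≤ 1`.
(1) On the `d`-ary tree, `d ≥ 2`: the limit of `a_n` exists and is positive (reconstruction) if and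
only if `d * lam ^ 2 > 1`, and it is zero (nonreconstruction) if and only if `d * lam ^ 2 ≤ 1`.
(2) The same on the Galton-Watson tree with Poisson offspring of any real mean `d > 0`. -/
theorem result :
    (∀ (d : ℕ) (lam : ℝ), 2 ≤ d → -(1 / 2) ≤ lam → lam ≤ 1 →
      ((∃ L : ℝ, 0 < L ∧ Filter.Tendsto (fun n => aSeq 3 d lam n) Filter.atTop (nhds L)) ↔
        1 < (d : ℝ) * lam ^ 2) ∧
      (Filter.Tendsto (fun n => aSeq 3 d lam n) Filter.atTop (nhds 0) ↔
        (d : ℝ) * lam ^ 2 ≤ 1)) ∧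
    (∀ d lam : ℝ, 0 < d → -(1 / 2) ≤ lam → lam ≤ 1 →
      ((∃ L : ℝ, 0 < L ∧ Filter.Tendsto (fun n => aSeqG 3 d lam n) Filter.atTop (nhds L)) ↔
        1 < d * lam ^ 2) ∧
      (Filter.Tendsto (fun n => aSeqG 3 d lam n) Filter.atTop (nhds 0) ↔ d * lam ^ 2 ≤ 1)) := by
  refine ⟨fun d lam hd h0 h1 => dichotomy _ _ (fun h => reg_zero d lam hd h0 h) fun h => ?_,
    fun d lam hd h0 h1 => dichotomy _ _ (fun h => pois_all d hd lam h0 h1 h) fun h => ?_⟩
  · obtain ⟨c, hc, hn⟩ := ks_reg h0 h1 h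
    exact pos_limit _ (aSeq_anti h1 h0) c hc hn
  · obtain ⟨c, hc, hn⟩ := ks_pois hd h0 h1 h
    exact pos_limit _ (aSeqG_anti hd.le h1 h0) c hc hn

end Vale.Agent.Results.P154.TernaryIff
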